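import Mathlib

/-!
Definitions for the affine maximal equation on the whole of `ℝ^n` (entire graphs).
-/

namespace Vale.Agent.Lib.P252

open Matrix

variable {n : ℕ}

/-- The Hessian matrix `(∂_i ∂_j u)(x)`, the second partial derivatives being iterated
directional derivatives along the coordinate vectors. -/
noncomputable def hess (u : (Fin n → ℝ) → ℝ) (x : Fin n → ℝ) : Matrix (Fin n) (Fin n) ℝ :=
  Matrix.of fun i j => lineDeriv ℝ (fun y => lineDeriv ℝ u y (Pi.single j 1)) x (Pi.single i 1)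

/-- The cofactor matrix `U^{ij} = det(D²u) (D²u)^{-1}_{ij}`. -/
noncomputable def cof (u : (Fin n → ℝ) → ℝ) (x : Fin n → ℝ) : Matrix (Fin n) (Fin n) ℝ :=
  (hess u x).det • (hess u x)⁻¹

/-- `w = (det D²u)^{-(n+1)/(n+2)}`. -/
noncomputable def wfun (u : (Fin n → ℝ) → ℝ) (x : Fin n → ℝ) : ℝ :=
  (hess u x).det ^ (-((n : ℝ) + 1) / ((n : ℝ) + 2))

/-- The affine maximal equation `∑_{i,j} U^{ij} ∂_{ij} w = 0` on all of `ℝ^n`. -/
def AffineMaximal (u : (Fin n → ℝ) → ℝ) : Prop :=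
  ∀ x, ∑ i, ∑ j, cof u x i j * hess (wfun u) x i j = 0

end Vale.Agent.Lib.P252
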