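import Mathlib

/-!
One-dimensional lemmas.
-/

namespace Vale.Agent.Lib.P252

/-- A positive function on the line with nonpositive second derivative has zero derivative. -/
theorem deriv_eq_zero_of_pos_of_deriv2_nonpos (φ : ℝ → ℝ) (h1 : Differentiable ℝ φ)
    (h2 : Differentiable ℝ (deriv φ)) (hpos : ∀ t, 0 < φ t) (hc : ∀ t, deriv (deriv φ) t ≤ 0)
    (t0 : ℝ) : deriv φ t0 = 0 := by
  have hanti : Antitone (deriv φ) := antitone_of_deriv_nonpos h2 hc
  by_contra hne
  rcases lt_or_gt_of_ne hne with hm | hm
  · -- negative slope: go to the right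
    set m := deriv φ t0 with hmdef
    set t := t0 + (φ t0) / (-m) with ht
    have hpos' : 0 < (φ t0) / (-m) := div_pos (hpos t0) (by linarith)
    have hle : t0 ≤ t := by linarith
    have key : φ t - φ t0 ≤ m * (t - t0) := by
      apply Convex.image_sub_le_mul_sub_of_deriv_le (convex_Ici t0) h1.continuous.continuousOn
        h1.differentiableOn _ t0 (Set.mem_Ici.mpr le_rfl) t (Set.mem_Ici.mpr hle) hle
      intro x hx
      rw [interior_Ici] at hx
      exact hanti (le_of_lt hx)
    have : m * (t - t0) = - φ t0 := by
      rw [ht]; field_simp; ring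
    have := hpos t
    linarith
  · set m := deriv φ t0 with hmdef
    set t := t0 - (φ t0) / m with ht
    have hpos' : 0 < (φ t0) / m := div_pos (hpos t0) hm
    have hle : t ≤ t0 := by linarith
    have key : m * (t0 - t) ≤ φ t0 - φ t := by
      apply Convex.mul_sub_le_image_sub_of_le_deriv (convex_Iic t0) h1.continuous.continuousOn
        h1.differentiableOn _ t (Set.mem_Iic.mpr hle) t0 (Set.mem_Iic.mpr le_rfl) hle
      intro x hx
      rw [interior_Iic] at hx
      exact hanti (le_of_lt hx)
    have : m * (t0 - t) = φ t0 := by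
      rw [ht]; field_simp; ring
    have := hpos t
    linarith

/-- A function with constant second derivative is a quadratic polynomial. -/
theorem quadratic_of_deriv2_const (f : ℝ → ℝ) (h1 : Differentiable ℝ f)
    (h2 : Differentiable ℝ (deriv f)) (a : ℝ) (hc : ∀ t, deriv (deriv f) t = a) (t : ℝ) :
    f t = a / 2 * t ^ 2 + deriv f 0 * t + f 0 := by
  -- first: deriv f t = a t + deriv f 0
  have hd : ∀ s, deriv f s = a * s + deriv f 0 := by
    intro s
    have hdiff : Differentiable ℝ (fun s => deriv f s - a * s) :=
      h2.sub ((differentiable_const a).mul differentiable_id)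
    have hz : ∀ s, deriv (fun s => deriv f s - a * s) s = 0 := by
      intro s
      have : HasDerivAt (fun s => deriv f s - a * s) (deriv (deriv f) s - a * 1) s :=
        (h2 s).hasDerivAt.sub ((hasDerivAt_id s).const_mul a)
      rw [this.deriv, hc]; ring
    have := is_const_of_deriv_eq_zero hdiff hz s 0
    simp only [mul_zero, sub_zero] at this
    linarith
  have hdiff : Differentiable ℝ (fun s => f s - (a / 2 * s ^ 2 + deriv f 0 * s)) :=
    h1.sub ((((differentiable_const (a / 2)).mul (differentiable_id.pow 2))).add
      ((differentiable_const _).mul differentiable_id))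
  have hz : ∀ s, deriv (fun s => f s - (a / 2 * s ^ 2 + deriv f 0 * s)) s = 0 := by
    intro s
    have h3 : HasDerivAt (fun s : ℝ => a / 2 * s ^ 2) (a / 2 * (2 * s)) s := by
      have := (hasDerivAt_pow 2 s).const_mul (a / 2)
      simpa using this
    have : HasDerivAt (fun s => f s - (a / 2 * s ^ 2 + deriv f 0 * s))
        (deriv f s - (a / 2 * (2 * s) + deriv f 0 * 1)) s :=
      (h1 s).hasDerivAt.sub (h3.add ((hasDerivAt_id s).const_mul _))
    rw [this.deriv, hd]; ring
  have := is_const_of_deriv_eq_zero hdiff hz t 0
  simp only [ne_eq, OfNat.ofNat_ne_zero, not_false_eq_true, zero_pow, mul_zero, add_zero,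
    sub_zero] at this
  linarith

end Vale.Agent.Lib.P252
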