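import Mathlib
import Vale.Agent.Lib.P252.Defs
import Vale.Agent.Lib.P252.OneD

/-!
Separable functions `u(x) = ∑ f_i(x_i)`: Hessian, cofactor matrix, and the affine maximal equation.
-/

namespace Vale.Agent.Lib.P252

open Matrix Finset

variable {n : ℕ}

theorem shift_same (x : Fin n → ℝ) (i : Fin n) (t : ℝ) :
    (x + t • (Pi.single i (1 : ℝ) : Fin n → ℝ)) i = x i + t := by
  simp

theorem shift_ne (x : Fin n → ℝ) {i k : Fin n} (h : k ≠ i) (t : ℝ) :
    (x + t • (Pi.single i (1 : ℝ) : Fin n → ℝ)) k = x k := by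
  simp [Pi.single_eq_of_ne h]

theorem lineDeriv_of_line (F : (Fin n → ℝ) → ℝ) (G : ℝ → ℝ) (x : Fin n → ℝ) (i : Fin n)
    (h : ∀ t : ℝ, F (x + t • (Pi.single i (1 : ℝ) : Fin n → ℝ)) = G (x i + t)) :
    lineDeriv ℝ F x (Pi.single i 1) = deriv G (x i) := by
  unfold lineDeriv
  have : (fun t : ℝ => F (x + t • (Pi.single i (1 : ℝ) : Fin n → ℝ))) = fun t => G (x i + t) :=
    funext h
  rw [this, deriv_comp_const_add, add_zero]

theorem lineDeriv_sum (f : Fin n → ℝ → ℝ) (x : Fin n → ℝ) (i : Fin n) :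
    lineDeriv ℝ (fun y => ∑ k, f k (y k)) x (Pi.single i 1) = deriv (f i) (x i) := by
  rw [lineDeriv_of_line _ (fun s => f i s + ∑ k ∈ univ.erase i, f k (x k)) x i]
  · rw [deriv_add_const]
  · intro t
    rw [← add_sum_erase univ _ (mem_univ i), shift_same]
    congr 1
    apply sum_congr rfl
    intro k hk
    rw [shift_ne x (ne_of_mem_erase hk)]

theorem lineDeriv_coord (g : ℝ → ℝ) (x : Fin n → ℝ) (i j : Fin n) :
    lineDeriv ℝ (fun y : Fin n → ℝ => g (y j)) x (Pi.single i 1)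
      = if i = j then deriv g (x j) else 0 := by
  split_ifs with h
  · subst h
    rw [lineDeriv_of_line _ g x i]
    intro t
    rw [shift_same]
  · rw [lineDeriv_of_line _ (fun _ => g (x j)) x i]
    · simp
    · intro t
      rw [shift_ne x (Ne.symm h)]

theorem lineDeriv_prod (φ : Fin n → ℝ → ℝ) (x : Fin n → ℝ) (i : Fin n) :
    lineDeriv ℝ (fun y => ∏ k, φ k (y k)) x (Pi.single i 1)
      = deriv (φ i) (x i) * ∏ k ∈ univ.erase i, φ k (x k) := by
  rw [lineDeriv_of_line _ (fun s => φ i s * ∏ k ∈ univ.erase i, φ k (x k)) x i]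
  · rw [deriv_mul_const_field]
  · intro t
    rw [← mul_prod_erase univ _ (mem_univ i), shift_same]
    congr 1
    apply prod_congr rfl
    intro k hk
    rw [shift_ne x (ne_of_mem_erase hk)]

theorem lineDeriv_prod' (g : ℝ → ℝ) (φ : Fin n → ℝ → ℝ) (x : Fin n → ℝ) (i : Fin n) :
    lineDeriv ℝ (fun y => g (y i) * ∏ k ∈ univ.erase i, φ k (y k)) x (Pi.single i 1)
      = deriv g (x i) * ∏ k ∈ univ.erase i, φ k (x k) := by
  rw [lineDeriv_of_line _ (fun s => g s * ∏ k ∈ univ.erase i, φ k (x k)) x i]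
  · rw [deriv_mul_const_field]
  · intro t
    rw [shift_same]
    congr 1
    apply prod_congr rfl
    intro k hk
    rw [shift_ne x (ne_of_mem_erase hk)]

/-- Hessian of a separable function. -/
theorem hess_sep (f : Fin n → ℝ → ℝ) (x : Fin n → ℝ) :
    hess (fun y => ∑ k, f k (y k)) x = diagonal fun i => deriv (deriv (f i)) (x i) := by
  ext i j
  unfold hess
  simp only [of_apply]
  have : (fun y => lineDeriv ℝ (fun y => ∑ k, f k (y k)) y (Pi.single j 1))
      = fun y : Fin n → ℝ => deriv (f j) (y j) := by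
    funext y; exact lineDeriv_sum f y j
  rw [this, lineDeriv_coord, diagonal_apply]
  split_ifs with h
  · subst h; rfl
  · rfl

/-- diagonal entries of the Hessian of a product function. -/
theorem hess_prod_diag (φ : Fin n → ℝ → ℝ) (x : Fin n → ℝ) (i : Fin n) :
    hess (fun y => ∏ k, φ k (y k)) x i i
      = deriv (deriv (φ i)) (x i) * ∏ k ∈ univ.erase i, φ k (x k) := by
  unfold hess
  simp only [of_apply]
  have : (fun y => lineDeriv ℝ (fun y => ∏ k, φ k (y k)) y (Pi.single i 1))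
      = fun y : Fin n → ℝ => deriv (φ i) (y i) * ∏ k ∈ univ.erase i, φ k (y k) := by
    funext y; exact lineDeriv_prod φ y i
  rw [this, lineDeriv_prod']

theorem cof_sep (f : Fin n → ℝ → ℝ) (x : Fin n → ℝ)
    (hpos : ∀ i, 0 < deriv (deriv (f i)) (x i)) :
    cof (fun y => ∑ k, f k (y k)) x
      = diagonal fun i => ∏ k ∈ univ.erase i, deriv (deriv (f k)) (x k) := by
  unfold cof
  rw [hess_sep, Matrix.inv_def, det_diagonal, smul_smul, adjugate_diagonal]
  have hne : (∏ i, deriv (deriv (f i)) (x i)) ≠ 0 := (prod_pos fun i _ => hpos i).ne'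
  rw [Ring.inverse_eq_inv', mul_inv_cancel₀ hne, one_smul]

theorem wfun_sep (f : Fin n → ℝ → ℝ) (hpos : ∀ i t, 0 < deriv (deriv (f i)) t) :
    wfun (fun y => ∑ k, f k (y k))
      = fun y => ∏ k, (fun t => deriv (deriv (f k)) t ^ (-((n : ℝ) + 1) / ((n : ℝ) + 2))) (y k) := by
  funext y
  unfold wfun
  rw [hess_sep, det_diagonal]
  rw [Real.finsetProd_rpow]
  intro i _
  exact (hpos i _).le

/-- The affine maximal equation for a separable function, in separated form. -/
theorem am_sep (f : Fin n → ℝ → ℝ) (hpos : ∀ i t, 0 < deriv (deriv (f i)) t)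
    (hAM : AffineMaximal (fun y => ∑ k, f k (y k))) (x : Fin n → ℝ) :
    ∑ i, deriv (deriv (fun t => deriv (deriv (f i)) t ^ (-((n : ℝ) + 1) / ((n : ℝ) + 2)))) (x i)
      / (deriv (deriv (f i)) (x i) * deriv (deriv (f i)) (x i) ^ (-((n : ℝ) + 1) / ((n : ℝ) + 2)))
      = 0 := by
  have h := hAM x
  rw [cof_sep f x (fun i => hpos i _), wfun_sep f hpos] at h
  simp only [diagonal_apply, ite_mul, zero_mul, sum_ite_eq, mem_univ, if_true] at h
  have hp : ∀ i, hess (fun y => ∏ k, deriv (deriv (f k)) (y k) ^ (-((n : ℝ) + 1) / ((n : ℝ) + 2))) x i i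
      = deriv (deriv (fun t => deriv (deriv (f i)) t ^ (-((n : ℝ) + 1) / ((n : ℝ) + 2)))) (x i)
        * ∏ k ∈ univ.erase i, deriv (deriv (f k)) (x k) ^ (-((n : ℝ) + 1) / ((n : ℝ) + 2)) :=
    fun i => hess_prod_diag (fun k t => deriv (deriv (f k)) t ^ (-((n : ℝ) + 1) / ((n : ℝ) + 2))) x i
  simp only [hp] at h
  set θ := (-((n : ℝ) + 1) / ((n : ℝ) + 2)) with hθ
  set a : Fin n → ℝ := fun k => deriv (deriv (f k)) (x k) with ha
  have hapos : ∀ k, 0 < a k := fun k => hpos k _
  have hppos : ∀ k, 0 < a k ^ θ := fun k => Real.rpow_pos_of_pos (hapos k) _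
  set D := (∏ k, a k) * ∏ k, a k ^ θ with hD
  have hDpos : 0 < D := mul_pos (prod_pos fun k _ => hapos k) (prod_pos fun k _ => hppos k)
  have key : ∀ i, (∏ k ∈ univ.erase i, a k) *
      (deriv (deriv (fun t => deriv (deriv (f i)) t ^ θ)) (x i) * ∏ k ∈ univ.erase i, a k ^ θ)
      = D * (deriv (deriv (fun t => deriv (deriv (f i)) t ^ θ)) (x i) / (a i * a i ^ θ)) := by
    intro i
    rw [hD, ← mul_prod_erase univ a (mem_univ i), ← mul_prod_erase univ (fun k => a k ^ θ) (mem_univ i)]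
    have h1 := (hapos i).ne'
    have h2 := (hppos i).ne'
    field_simp
  have h' : D * ∑ i, (deriv (deriv (fun t => deriv (deriv (f i)) t ^ θ)) (x i) / (a i * a i ^ θ)) = 0 := by
    rw [mul_sum, ← h]
    apply sum_congr rfl
    intro i _
    exact (key i).symm
  exact (mul_eq_zero.mp h').resolve_left hDpos.ne'

end Vale.Agent.Lib.P252
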